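import Vale.Agent.P335.GFinal

/-!
# P335: the switch chain mixes rapidly for every degree sequence

For every `n ≥ 4` and every degree vector `d` on `n` vertices, the lazy switch chain on the set of
all simple graphs with degree vector `d` is within total variation distance `1/4` of the uniform
distribution after `2 n^6` steps, from every starting graph; hence `tmix d ≤ 2 n^6`.
This is the Kannan-Tetali-Vempala conjecture for simple undirected graphs.
-/

namespace Vale.Agent.Results.P335.AllDegreeSequences

open Vale.Agent.P335

theorem result : ∀ n : ℕ, 4 ≤ n → ∀ d : Fin n → ℕ,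
    (∀ G : Omega d, tvDist d (2 * n ^ 6) G ≤ 1 / 4) ∧ tmix d ≤ 2 * n ^ 6 :=
  g_main

end Vale.Agent.Results.P335.AllDegreeSequences
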