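import Vale.Agent.P335.Literal

/-!
# P335: the switch chain, worded exactly as in the problem, mixes rapidly for every degree sequence

The chain: with probability 1/2 stay put; otherwise choose a 4-element vertex set `S` uniformly,
then choose uniformly an ordered pair `(F, F')` of distinct perfect matchings of the complete graph
on `S`; if both edges of `F` are present and both edges of `F'` are absent, replace `F` by `F'`.
For every `n ≥ 4` and every degree vector `d` it is within total variation distance `1/4` of the
uniform distribution after `2 n^6` steps from every start; hence the mixing time is at most `2 n^6`.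
-/

namespace Vale.Agent.Results.P335.AllDegreesVerbatim

open Vale.Agent.P335

theorem result : ∀ n : ℕ, 4 ≤ n → ∀ d : Fin n → ℕ,
    (∀ G : Omega d, tvDistL d (2 * n ^ 6) G ≤ 1 / 4) ∧ tmixL d ≤ 2 * n ^ 6 :=
  g_main_literal

end Vale.Agent.Results.P335.AllDegreesVerbatim
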