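import Vale.Agent.P335.Bip

/-!
# P335: the bipartite switch chain mixes rapidly for every pair of degree sequences

For all `m, n ≥ 2` and all margins `r`, `c`, the lazy switch chain (checkerboard swaps) on the
0-1 matrices with row sums `r` and column sums `c` has spectral gap at least `1 / (2 m^2 n^2)`
and is within total variation distance `1/4` of the uniform distribution after `2 m^3 n^3`
steps, from every starting matrix.
-/

namespace Vale.Agent.Results.P335.BipartiteRapidMixing

open Vale.Agent.P335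

theorem result : ∀ m n : ℕ, 2 ≤ m → 2 ≤ n → ∀ (r : Fin m → ℕ) (c : Fin n → ℕ),
    (∀ f : BOmega r c → ℝ, ∑ M, f M = 0 →
      1 / (2 * (m : ℝ) ^ 2 * (n : ℝ) ^ 2) * ∑ M, f M ^ 2 ≤
        (1 / 2) * ∑ M, ∑ M', bchain r c M M' * (f M - f M') ^ 2) ∧
    (∀ M : BOmega r c, btv r c (2 * m ^ 3 * n ^ 3) M ≤ 1 / 4) ∧
    btmix r c ≤ 2 * m ^ 3 * n ^ 3 :=
  fun _ _ hm hn r c => bip_main hm hn r c

end Vale.Agent.Results.P335.BipartiteRapidMixing
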