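import Vale.Agent.P335.Split
import Vale.Agent.P335.Assemble

/-!
# P335: the switch chain mixes rapidly for every split degree sequence

For every `n ≥ 4` and every degree vector `d` of a split graph on `n` vertices, the lazy switch
chain on the set of all realizations of `d` is within total variation distance `1/4` of the
uniform distribution after `2 n^6` steps, from every starting graph; hence `tmix d ≤ 2 n^6`.
-/

namespace Vale.Agent.Results.P335.SplitRapidMixing

open Vale.Agent.P335

theorem result : ∀ n : ℕ, 4 ≤ n → ∀ d : Fin n → ℕ, IsSplitSeq d →
    (∀ G : Omega d, tvDist d (2 * n ^ 6) G ≤ 1 / 4) ∧ tmix d ≤ 2 * n ^ 6 :=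
  fun _ hn d hd => assemble hn d (graph_poincare hd)

end Vale.Agent.Results.P335.SplitRapidMixing
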